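import Vale.Agent.Lib.P039B.GraphMap

namespace Vale.Agent.Results.P039.B_sparse_big

open Vale.Agent.Lib.P039B

/-- A cubic 3-connected plane graph (given by a rotation system of genus zero) with a proper
3-colouring of its faces is Hamiltonian as soon as, for one colour `r`, every face of colour `r`
has at least 6 sides and is adjacent to at most one face with at least 8 sides.  The faces of the
other two colours may be arbitrarily large. -/
theorem result {V : Type} [Fintype V] [DecidableEq V] (G : SimpleGraph V) [DecidableRel G.Adj]
    (hconn : G.Connected) (hreg : G.IsRegularOfDegree 3)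
    (h3 : ∀ S : Finset V, S.card ≤ 2 → (G.induce ((S : Set V)ᶜ)).Connected)
    (R : CubicRotation G) (hP : R.Planar)
    (c : R.Face → Fin 3) (hc : ∀ d : G.Dart, c (R.face d) ≠ c (R.face d.symm)) (r : Fin 3)
    (hred : ∀ f, c f = r → 6 ≤ R.faceSize f)
    (hbig : ∀ d d' : G.Dart, c (R.face d) = r → R.face d = R.face d' →
      8 ≤ R.faceSize (R.face d.symm) → 8 ≤ R.faceSize (R.face d'.symm) →
      R.face d.symm = R.face d'.symm) :
    G.IsHamiltonian :=
  hamiltonian_of_sparse_big G hconn hreg h3 R hP c hc r hred hbig

end Vale.Agent.Results.P039.B_sparse_big
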