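import Vale.Agent.Results.P039.A_square_class
import Vale.Agent.Results.P039.B_sparse_big

namespace Vale.Agent.Results.P039.A0_master

open Vale.Agent.Lib.P039B

/-- Two classes of cubic graphs that are Hamiltonian: those whose vertex set is partitioned into
the vertex sets of 4-cycles, and the 3-connected plane ones with a proper 3-colouring of the faces
in which, for one colour `r`, every face has at least 6 sides and is adjacent to at most one face
with at least 8 sides. -/
theorem result :
    (∀ (V : Type) [Fintype V] [DecidableEq V] (G : SimpleGraph V)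
      [DecidableRel G.Adj], G.Connected → G.IsRegularOfDegree 3 →
      ∀ P : Finpartition (Finset.univ : Finset V),
      (∀ s ∈ P.parts, ∃ w x y z : V, s = {w, x, y, z} ∧
        G.Adj w x ∧ G.Adj x y ∧ G.Adj y z ∧ G.Adj z w ∧ w ≠ y ∧ x ≠ z) →
      G.IsHamiltonian) ∧
    (∀ (V : Type) [Fintype V] [DecidableEq V] (G : SimpleGraph V) [DecidableRel G.Adj],
      G.Connected → G.IsRegularOfDegree 3 →
      (∀ S : Finset V, S.card ≤ 2 → (G.induce ((S : Set V)ᶜ)).Connected) →
      ∀ (R : CubicRotation G), R.Planar →
      ∀ (c : R.Face → Fin 3), (∀ d : G.Dart, c (R.face d) ≠ c (R.face d.symm)) → ∀ r : Fin 3,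
      (∀ f, c f = r → 6 ≤ R.faceSize f) →
      (∀ d d' : G.Dart, c (R.face d) = r → R.face d = R.face d' →
        8 ≤ R.faceSize (R.face d.symm) → 8 ≤ R.faceSize (R.face d'.symm) →
        R.face d.symm = R.face d'.symm) →
      G.IsHamiltonian) :=
  ⟨fun _ _ _ G _ hconn hreg P hP =>
      Vale.Agent.Results.P039.A_square_class.result G hconn hreg P hP,
    fun _ _ _ G _ hconn hreg h3 R hP c hc r hred hbig =>
      Vale.Agent.Results.P039.B_sparse_big.result G hconn hreg h3 R hP c hc r hred hbig⟩

end Vale.Agent.Results.P039.A0_master
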