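import Vale.Agent.Lib.P039.Square

namespace Vale.Agent.Results.P039.A_square_class

/-- Every finite connected cubic simple graph whose vertex set is partitioned into the vertex
sets of 4-cycles is Hamiltonian. Planarity and bipartiteness are not needed. -/
theorem result {V : Type*} [Fintype V] [DecidableEq V] (G : SimpleGraph V)
    [DecidableRel G.Adj] (hconn : G.Connected) (hreg : G.IsRegularOfDegree 3)
    (P : Finpartition (Finset.univ : Finset V))
    (hP : ∀ s ∈ P.parts, ∃ w x y z : V, s = {w, x, y, z} ∧
      G.Adj w x ∧ G.Adj x y ∧ G.Adj y z ∧ G.Adj z w ∧ w ≠ y ∧ x ≠ z) :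
    G.IsHamiltonian :=
  Vale.Agent.Lib.P039.ham_of_square_partition G hconn hreg P hP

end Vale.Agent.Results.P039.A_square_class
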